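import Vale.Agent.P082.Main
import Vale.Agent.P082.Three2
import Vale.Agent.P082.Fac

/-! P082 (Kadison-Ringrose cohomology conjecture): bounded Hochschild 2-cocycles of C*-algebras
and von Neumann algebras are determined by their diagonal. -/

namespace Vale.Agent.Results.P082.Diagonal

open Vale.Agent.P082

universe u

/-- (1) There is a universal constant `C` such that, for every unital C*-algebra `A`, every bounded
2-cocycle `f : A × A → A` and every bounded linear `g : A → A`, the norm of `f - dg` is at most
`C` times the supremum of the norms of its values at the pairs `(u, u)`, `u` unitary.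
(2) For nonzero integers `m`, `n`: if `f` and `dg` agree at the pairs `(u ^ m, u ^ n)`, `u` unitary,
then `f = dg`.
(3) For a von Neumann algebra `M`: the class of a bounded 2-cocycle in `H²_b(M, M)` is zero iff
its values at the pairs `(u ^ m, u ^ n)` are those of the coboundary of a bounded linear map.
(4) Coefficients in bimodules, without boundedness.
(5) Degree three: `f = dφ` if this is so at all `(x, x, z)`, without boundedness.
(6) The hypothesis of (4) and (5) holds for all von Neumann algebras without abelian summand. -/
theorem result :
    (∃ C : ℝ, ∀ (A : Type u) [CStarAlgebra A], UnitaryBound A C) ∧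
    (∀ (A : Type u) [CStarAlgebra A], DeterminedAtUnitaries A) ∧
    (∀ (H : Type u) [NormedAddCommGroup H] [InnerProductSpace ℂ H] [CompleteSpace H]
      (M : VonNeumannAlgebra H), CohomologyDetected M.toStarSubalgebra) ∧
    (∀ (A : Type u) [CStarAlgebra A], AlternatingVanish A) ∧
    (∀ (A : Type u) [CStarAlgebra A], DegreeThree A) ∧
    ∀ (H : Type u) [NormedAddCommGroup H] [InnerProductSpace ℂ H] [CompleteSpace H]
      (M : VonNeumannAlgebra H), NoAbelianSummand M → FaithfulCommutators M.toStarSubalgebra :=
  ⟨bound, fun A _ => determined A, fun _ _ _ _ M => detected M.toStarSubalgebra,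
    fun _ _ hA _ _ _ _ _ hX F h1 h2 hc ha x y => bimodule hA hX F h1 h2 hc ha x y,
    fun A _ => degreeThree A, fun _ _ _ _ M hM => faithful_of_noAbelian M hM⟩

end Vale.Agent.Results.P082.Diagonal
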